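import Mathlib

/-!
P245, abstract layer by resolvents only (helper44), part A: resolvents of a nonnegative symmetric linear
relation in a real Hilbert space, nonnegative forms.
-/

set_option linter.all false

open Filter Topology
open scoped InnerProductSpace

namespace Vale.Agent.P245.Abs44

/-! ### nonnegative symmetric forms -/

/-- symmetric nonnegative bilinear form, as a function -/
structure PF {E : Type*} [AddCommGroup E] [Module ℝ E] (B : E → E → ℝ) : Prop where
  add : ∀ x y z, B (x + y) z = B x z + B y z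
  smul : ∀ (c : ℝ) x y, B (c • x) y = c * B x y
  symm : ∀ x y, B x y = B y x
  nn : ∀ x, 0 ≤ B x x

namespace PF

variable {E : Type*} [AddCommGroup E] [Module ℝ E] {B : E → E → ℝ} (h : PF B)
include h

theorem add_right (x y z : E) : B x (y + z) = B x y + B x z := by
  rw [h.symm x (y + z), h.add, h.symm y x, h.symm z x]

theorem smul_right (c : ℝ) (x y : E) : B x (c • y) = c * B x y := by
  rw [h.symm x (c • y), h.smul, h.symm y x]

theorem neg (x y : E) : B (-x) y = -B x y := by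
  have := h.smul (-1) x y
  rw [neg_one_smul] at this
  linarith

theorem sub (x y z : E) : B (x - y) z = B x z - B y z := by
  rw [sub_eq_add_neg, h.add, h.neg]; ring

theorem sub_right (x y z : E) : B x (y - z) = B x y - B x z := by
  rw [h.symm x (y - z), h.sub, h.symm y x, h.symm z x]

theorem cs (x y : E) : (B x y) ^ 2 ≤ B x x * B y y := by
  have h1 : ∀ s : ℝ, 0 ≤ B y y * (s * s) + (2 * B x y) * s + B x x := by
    intro s
    have h2 := h.nn (x + s • y)
    have h3 : B (x + s • y) (x + s • y) = B y y * (s * s) + (2 * B x y) * s + B x x := by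
      rw [h.add, h.add_right, h.add_right, h.smul, h.smul_right, h.smul_right, h.smul, h.symm y x]
      ring
    rwa [h3] at h2
  have h4 := discrim_le_zero h1
  unfold discrim at h4
  nlinarith

theorem abs_le (x y : E) : |B x y| ≤ Real.sqrt (B x x) * Real.sqrt (B y y) := by
  rw [← Real.sqrt_mul (h.nn x)]
  refine Real.abs_le_sqrt (h.cs x y)

theorem le (x y : E) : B x y ≤ Real.sqrt (B x x) * Real.sqrt (B y y) :=
  (le_abs_self _).trans (h.abs_le x y)

theorem tri (x y : E) : Real.sqrt (B (x + y) (x + y)) ≤ Real.sqrt (B x x) + Real.sqrt (B y y) := by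
  refine Real.sqrt_le_iff.2 ⟨add_nonneg (Real.sqrt_nonneg _) (Real.sqrt_nonneg _), ?_⟩
  have h1 : B (x + y) (x + y) = B x x + 2 * B x y + B y y := by
    rw [h.add, h.add_right, h.add_right, h.symm y x]
    ring
  have h2 := h.le x y
  have h3 := Real.sq_sqrt (h.nn x)
  have h4 := Real.sq_sqrt (h.nn y)
  rw [h1]
  nlinarith

theorem nsmul (c : ℝ) (hc : 0 ≤ c) (x : E) :
    Real.sqrt (B (c • x) (c • x)) = c * Real.sqrt (B x x) := by
  rw [h.smul, h.smul_right, ← mul_assoc, Real.sqrt_mul (mul_self_nonneg c), Real.sqrt_mul_self hc]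

/-- polarisation of a difference -/
theorem diff (x y : E) : B y y - B x x = B (x + y) (y - x) := by
  rw [h.add, h.sub_right, h.sub_right, h.symm y x]
  ring

end PF

variable {H : Type*} [NormedAddCommGroup H] [InnerProductSpace ℝ H]

/-- the graph `Gr` of a symmetric nonnegative operator and its resolvents `J s = (1 + s A)⁻¹` -/
structure Res (Gr : Submodule ℝ (H × H)) (J : ℝ → H →L[ℝ] H) : Prop where
  mem : ∀ s : ℝ, 0 < s → ∀ z, (J s z, s⁻¹ • (z - J s z)) ∈ Gr
  symm : ∀ p ∈ Gr, ∀ q ∈ Gr, (inner ℝ p.2 q.1 : ℝ) = inner ℝ p.1 q.2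
  pos : ∀ p ∈ Gr, (0 : ℝ) ≤ inner ℝ p.2 p.1
  fn : ∀ y : H, ((0 : H), y) ∈ Gr → y = 0

namespace Res

variable {Gr : Submodule ℝ (H × H)} {J : ℝ → H →L[ℝ] H} (h : Res Gr J)
include h

theorem uniq {p : H × H} (hp : p ∈ Gr) {s : ℝ} (hs : 0 < s) : J s (p.1 + s • p.2) = p.1 := by
  have h1 := h.mem s hs (p.1 + s • p.2)
  set w := J s (p.1 + s • p.2) with hw
  have h2 := Gr.sub_mem hp h1
  have h3 : p - (w, s⁻¹ • (p.1 + s • p.2 - w)) = (p.1 - w, -(s⁻¹ • (p.1 - w))) := by
    refine Prod.ext rfl ?_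
    show p.2 - s⁻¹ • (p.1 + s • p.2 - w) = -(s⁻¹ • (p.1 - w))
    have : s⁻¹ • (p.1 + s • p.2 - w) = s⁻¹ • (p.1 - w) + p.2 := by
      rw [show p.1 + s • p.2 - w = (p.1 - w) + s • p.2 by abel, smul_add, smul_smul,
        inv_mul_cancel₀ hs.ne', one_smul]
    rw [this]; abel
  rw [h3] at h2
  have h4 := h.pos _ h2
  simp only [inner_neg_left, real_inner_smul_left, real_inner_self_eq_norm_sq] at h4
  have h5 : 0 ≤ s⁻¹ * ‖p.1 - w‖ ^ 2 := by positivity
  have h6 : s⁻¹ * ‖p.1 - w‖ ^ 2 = 0 := by linarith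
  have h7 : ‖p.1 - w‖ ^ 2 = 0 := by
    rcases mul_eq_zero.1 h6 with h8 | h8
    · exact absurd h8 (inv_ne_zero hs.ne')
    · exact h8
  have h8 : p.1 - w = 0 := by
    rw [← norm_eq_zero]
    exact pow_eq_zero_iff (two_ne_zero) |>.1 h7
  exact (sub_eq_zero.1 h8).symm

theorem dec {s : ℝ} (hs : 0 < s) (z : H) : z = J s z + s • (s⁻¹ • (z - J s z)) := by
  rw [smul_smul, mul_inv_cancel₀ hs.ne', one_smul]; abel

theorem sq_eq {s : ℝ} (hs : 0 < s) (z : H) :
    ‖z‖ ^ 2 = ‖J s z‖ ^ 2 + 2 * inner ℝ (z - J s z) (J s z) + ‖z - J s z‖ ^ 2 := by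
  have e : z = J s z + (z - J s z) := by abel
  have h1 := norm_add_sq_real (J s z) (z - J s z)
  rw [← e] at h1
  rw [h1, real_inner_comm (J s z) (z - J s z)]

theorem in_nn {s : ℝ} (hs : 0 < s) (z : H) : (0 : ℝ) ≤ inner ℝ (z - J s z) (J s z) := by
  have h1 := h.pos _ (h.mem s hs z)
  simp only [real_inner_smul_left] at h1
  exact (mul_nonneg_iff_of_pos_left (inv_pos.2 hs)).1 h1

theorem le {s : ℝ} (hs : 0 < s) (z : H) : ‖J s z‖ ≤ ‖z‖ := by
  have h1 := h.sq_eq hs z
  have h2 := h.in_nn hs z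
  have h3 : ‖J s z‖ ^ 2 ≤ ‖z‖ ^ 2 := by nlinarith [sq_nonneg ‖z - J s z‖]
  exact le_of_sq_le_sq h3 (norm_nonneg _) |> fun h => h

theorem le' {s : ℝ} (hs : 0 < s) (z : H) : ‖z - J s z‖ ≤ ‖z‖ := by
  have h1 := h.sq_eq hs z
  have h2 := h.in_nn hs z
  have h3 : ‖z - J s z‖ ^ 2 ≤ ‖z‖ ^ 2 := by nlinarith [sq_nonneg ‖J s z‖]
  exact le_of_sq_le_sq h3 (norm_nonneg _) |> fun h => h

theorem sa {s : ℝ} (hs : 0 < s) (x y : H) : (inner ℝ (J s x) y : ℝ) = inner ℝ x (J s y) := by
  have h1 := h.symm _ (h.mem s hs x) _ (h.mem s hs y)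
  simp only [real_inner_smul_left, real_inner_smul_right, inner_sub_left, inner_sub_right] at h1
  have h2 := mul_left_cancel₀ (inv_ne_zero hs.ne') h1
  linarith

theorem ge {s : ℝ} (hs : 0 < s) (x : H) : ‖J s x‖ ^ 2 ≤ inner ℝ (J s x) x := by
  have h1 := h.in_nn hs x
  rw [inner_sub_left, real_inner_self_eq_norm_sq, real_inner_comm] at h1
  linarith

theorem nn {s : ℝ} (hs : 0 < s) (x : H) : (0 : ℝ) ≤ inner ℝ (J s x) x :=
  (sq_nonneg _).trans (h.ge hs x)

theorem le_one {s : ℝ} (hs : 0 < s) (x : H) : (inner ℝ (J s x) x : ℝ) ≤ ‖x‖ ^ 2 := by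
  refine (real_inner_le_norm _ _).trans ?_
  have := h.le hs x
  nlinarith [norm_nonneg x]

/-- resolvent identity -/
theorem ri {s t : ℝ} (hs : 0 < s) (ht : 0 < t) (z : H) :
    J t (J s z) + (t / s) • (J t z - J t (J s z)) = J s z := by
  have h1 := h.uniq (h.mem s hs z) ht
  simp only [smul_smul, map_add, map_smul, map_sub] at h1
  rw [← div_eq_mul_inv] at h1
  exact h1

theorem comm {s t : ℝ} (hs : 0 < s) (ht : 0 < t) (z : H) : J s (J t z) = J t (J s z) := by
  rcases eq_or_ne s t with rfl | hst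
  · rfl
  · have h1 := h.ri hs ht z
    have h2 := h.ri ht hs z
    have h3 : (t - s) • (J s (J t z) - J t (J s z)) = 0 := by
      have e1 : s • (J t (J s z) + (t / s) • (J t z - J t (J s z))) =
          s • J t (J s z) + t • (J t z - J t (J s z)) := by
        rw [smul_add, smul_smul, mul_div_cancel₀ _ hs.ne']
      have e2 : t • (J s (J t z) + (s / t) • (J s z - J s (J t z))) =
          t • J s (J t z) + s • (J s z - J s (J t z)) := by
        rw [smul_add, smul_smul, mul_div_cancel₀ _ ht.ne']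
      rw [h1] at e1
      rw [h2] at e2
      have e3 : t • J t z - s • J s z = (t - s) • J s (J t z) := by
        rw [e2]; module
      have e4 : t • J t z - s • J s z = (t - s) • J t (J s z) := by
        rw [e1]; module
      rw [smul_sub, ← e3, ← e4, sub_self]
    rcases smul_eq_zero.1 h3 with h4 | h4
    · exact absurd (sub_eq_zero.1 h4).symm hst
    · exact sub_eq_zero.1 h4

/-- halving the scale: `J (2t) = J t (1 + J (2t)) / 2`, in the form `a b = 2 a - b` -/
theorem half {t : ℝ} (ht : 0 < t) (z : H) : J (t / 2) (J t z) = (2 : ℝ) • J t z - J (t / 2) z := by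
  have ht2 : 0 < t / 2 := by positivity
  have h1 := h.ri ht ht2 z
  have e : t / 2 / t = 1 / 2 := by field_simp
  rw [e] at h1
  have key : ∀ X Y T : H, X + (1 / 2 : ℝ) • (Y - X) = T → X = (2 : ℝ) • T - Y := by
    intro X Y T hh
    rw [← hh]
    module
  exact key _ _ _ h1

theorem half' {t : ℝ} (ht : 0 < t) (z : H) : J t (J (t / 2) z) = (2 : ℝ) • J t z - J (t / 2) z := by
  rw [h.comm ht (by positivity), h.half ht]

theorem map {p : H × H} (hp : p ∈ Gr) {s : ℝ} (hs : 0 < s) : (J s p.1, J s p.2) ∈ Gr := by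
  have h1 := h.uniq hp hs
  rw [map_add, map_smul] at h1
  have h2 : J s p.2 = s⁻¹ • (p.1 - J s p.1) := by
    have key : ∀ a b c : H, a + s • b = c → b = s⁻¹ • (c - a) := by
      intro a b c hh
      rw [← hh, add_sub_cancel_left, smul_smul, inv_mul_cancel₀ hs.ne', one_smul]
    exact key _ _ _ h1
  rw [h2]
  exact h.mem s hs p.1

/-- `‖J z - z‖ ≤ s ‖A z‖` -/
theorem near {p : H × H} (hp : p ∈ Gr) {s : ℝ} (hs : 0 < s) : ‖p.1 - J s p.1‖ ≤ s * ‖p.2‖ := by
  have h1 := h.uniq hp hs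
  rw [map_add, map_smul] at h1
  have h2 : p.1 - J s p.1 = s • J s p.2 := by
    have key : ∀ a b c : H, a + b = c → c - a = b := by
      intro a b c hh
      rw [← hh]; abel
    exact key _ _ _ h1
  rw [h2, norm_smul, Real.norm_of_nonneg hs.le]
  exact mul_le_mul_of_nonneg_left (h.le hs _) hs.le

theorem sub_eq {p : H × H} (hp : p ∈ Gr) {s : ℝ} (hs : 0 < s) : p.1 - J s p.1 = s • J s p.2 := by
  have h1 := h.uniq hp hs
  rw [map_add, map_smul] at h1
  have key : ∀ a b c : H, a + b = c → c - a = b := by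
    intro a b c hh
    rw [← hh]; abel
  exact key _ _ _ h1

/-- the domain is dense -/
theorem dense [CompleteSpace H] : Dense (Set.range (J 1)) := by
  have h1 : (LinearMap.range (J 1).toLinearMap)ᗮ = ⊥ := by
    rw [Submodule.eq_bot_iff]
    intro y hy
    have h2 : ∀ x, (inner ℝ (J 1 x) y : ℝ) = 0 := fun x =>
      (Submodule.mem_orthogonal _ _).1 hy _ ⟨x, rfl⟩
    have h3 : J 1 y = 0 := by
      have h4 := h2 (J 1 y)
      rw [h.sa one_pos, real_inner_self_eq_norm_sq] at h4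
      exact norm_eq_zero.1 (pow_eq_zero_iff (two_ne_zero) |>.1 h4)
    have h5 := h.mem 1 one_pos y
    rw [h3] at h5
    refine h.fn y ?_
    simpa using h5
  have h2 := (Submodule.topologicalClosure_eq_top_iff (K := LinearMap.range (J 1).toLinearMap)).2 h1
  rw [Submodule.dense_iff_topologicalClosure_eq_top.symm] at h2
  exact h2

/-- strong continuity at `0` -/
theorem tendsto [CompleteSpace H] {s : ℕ → ℝ} (hs : ∀ n, 0 < s n) (hs0 : Tendsto s atTop (𝓝 0)) (z : H) :
    Tendsto (fun n => J (s n) z) atTop (𝓝 z) := by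
  rw [Metric.tendsto_atTop]
  intro ε hε
  obtain ⟨y, ⟨x, rfl⟩, hy⟩ := h.dense.exists_dist_lt z (half_pos (half_pos hε))
  have hm := h.mem 1 one_pos x
  obtain ⟨v, hv⟩ : ∃ v, v = (1 : ℝ)⁻¹ • (x - J 1 x) := ⟨_, rfl⟩
  rw [← hv] at hm
  have h0 : Tendsto (fun n => s n * ‖v‖) atTop (𝓝 0) := by
    simpa using hs0.mul_const ‖v‖
  obtain ⟨N, hN⟩ := (Metric.tendsto_atTop.1 h0) (ε / 2) (half_pos hε)
  refine ⟨N, fun n hn => ?_⟩
  have h1 := h.near hm (hs n)
  have h2 : s n * ‖v‖ < ε / 2 := by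
    have := hN n hn
    rw [Real.dist_eq, sub_zero] at this
    exact (le_abs_self _).trans_lt this
  rw [dist_eq_norm] at hy ⊢
  have e : J (s n) z - z = J (s n) (z - J 1 x) - (J 1 x - J (s n) (J 1 x)) - (z - J 1 x) := by
    rw [map_sub]; abel
  rw [e]
  have h3 := norm_sub_le (J (s n) (z - J 1 x) - (J 1 x - J (s n) (J 1 x))) (z - J 1 x)
  have h4 := norm_sub_le (J (s n) (z - J 1 x)) (J 1 x - J (s n) (J 1 x))
  have h5 := h.le (hs n) (z - J 1 x)
  simp only at h1
  linarith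

end Res

end Vale.Agent.P245.Abs44
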