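import Vale.Agent.P245.H44.AbsA

/-!
P245, abstract layer by resolvents only (helper44), part B: the chain `G k` and the bound
`⟨G 1 J_τ x, J_τ x⟩ ≤ C τ⁻¹ ‖x‖²`.
-/

set_option linter.all false

open Filter Topology
open scoped InnerProductSpace

namespace Vale.Agent.P245.Abs44

variable {H : Type*} [NormedAddCommGroup H] [InnerProductSpace ℝ H]

/-- the form `K_{k+1}` on the graph -/
noncomputable def KK (G : ℕ → H →L[ℝ] H) (k : ℕ) (p q : H × H) : ℝ :=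
  ((inner ℝ (G (k + 1) p.1) q.2 : ℝ) + inner ℝ (G (k + 1) p.2) q.1
    + ((k : ℝ) + 1) * (inner ℝ (G (k + 1) p.1) q.1 - inner ℝ (G k p.1) q.1)) / 2

/-- the chain `G 0 = g`, `G (k+1) = (1 + A/(k+1))⁻¹ G k` (entrywise): what the abstract layer uses -/
structure Chain (Gr : Submodule ℝ (H × H)) (J : ℝ → H →L[ℝ] H) (G : ℕ → H →L[ℝ] H) (L : ℝ) : Prop where
  res : Res Gr J
  sa : ∀ k x y, (inner ℝ (G k x) y : ℝ) = inner ℝ x (G k y)
  nn : ∀ k x, (0 : ℝ) ≤ inner ℝ (G k x) x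
  bd : ∀ k x, (inner ℝ (G k x) x : ℝ) ≤ L * ‖x‖ ^ 2
  /-- `G k ≤ (1 + 1/(k+1)) G (k+1)` -/
  mono : ∀ k x, (inner ℝ (G k x) x : ℝ) ≤ (1 + 1 / ((k : ℝ) + 1)) * inner ℝ (G (k + 1) x) x
  lim : ∀ x, Tendsto (fun k => (inner ℝ (G k x) x : ℝ)) atTop (𝓝 (‖x‖ ^ 2))
  kk : ∀ k, ∀ p ∈ Gr, 0 ≤ KK G k p p
  cs : ∀ k, ∀ p ∈ Gr, ∀ q ∈ Gr, ((inner ℝ p.2 (G (k + 1) q.1) : ℝ) - KK G k p q) ^ 2 ≤
    9 / ((k : ℝ) + 3) * KK G k p p * inner ℝ (G (k + 1) q.1) q.1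

variable {Gr : Submodule ℝ (H × H)} {J : ℝ → H →L[ℝ] H} {G : ℕ → H →L[ℝ] H} {L : ℝ}

namespace Chain

variable (h : Chain Gr J G L)
include h

theorem pf (k : ℕ) : PF (fun x y : H => (inner ℝ (G k x) y : ℝ)) where
  add x y z := by rw [map_add, inner_add_left]
  smul c x y := by rw [map_smul, real_inner_smul_left]
  symm x y := by rw [h.sa, real_inner_comm]
  nn := h.nn k

/-- `(k+1) G_k` is nondecreasing -/
theorem mono' (x : H) : Monotone (fun k : ℕ => ((k : ℝ) + 1) * (inner ℝ (G k x) x : ℝ)) := by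
  refine monotone_nat_of_le_succ fun k => ?_
  have h1 := h.mono k x
  have hk : (0 : ℝ) < (k : ℝ) + 1 := by positivity
  have h2 : ((k : ℝ) + 1) * (inner ℝ (G k x) x : ℝ) ≤
      ((k : ℝ) + 1) * ((1 + 1 / ((k : ℝ) + 1)) * inner ℝ (G (k + 1) x) x) :=
    mul_le_mul_of_nonneg_left h1 hk.le
  refine h2.trans (le_of_eq ?_)
  push_cast
  field_simp
  try ring_nf
  try rfl

theorem up {k l : ℕ} (hkl : k ≤ l) (x : H) :
    (inner ℝ (G k x) x : ℝ) ≤ (((l : ℝ) + 1) / ((k : ℝ) + 1)) * inner ℝ (G l x) x := by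
  have h1 := h.mono' x hkl
  simp only at h1
  have hk : (0 : ℝ) < (k : ℝ) + 1 := by positivity
  rw [div_mul_eq_mul_div, le_div_iff₀ hk]
  linarith

theorem up2 (k i : ℕ) (x : H) : (inner ℝ (G k x) x : ℝ) ≤ 2 ^ i * inner ℝ (G (2 ^ i * k) x) x := by
  have h2 : (1 : ℕ) ≤ 2 ^ i := Nat.one_le_two_pow
  have h1 := h.up (k := k) (l := 2 ^ i * k) (Nat.le_mul_of_pos_left k (by positivity)) x
  refine h1.trans (mul_le_mul_of_nonneg_right ?_ (h.nn _ _))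
  have hk : (0 : ℝ) < (k : ℝ) + 1 := by positivity
  rw [div_le_iff₀ hk]
  push_cast
  have h3 : (1 : ℝ) ≤ 2 ^ i := by exact_mod_cast h2
  linarith

theorem L_nn [Nontrivial H] : 0 ≤ L := by
  obtain ⟨x, hx⟩ := exists_ne (0 : H)
  have h1 := (h.nn 0 x).trans (h.bd 0 x)
  have h2 : 0 < ‖x‖ ^ 2 := by positivity
  exact nonneg_of_mul_nonneg_left h1 h2

/-- first telescoping step -/
theorem step_a {t : ℝ} (ht : 0 < t) (y : H) :
    J (t / 2) (J (t / 2) y) - J t (J t y) =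
      J (t / 2) (J (t / 2) ((1 / 4 : ℝ) • ((3 : ℝ) • (y - J t y) + J t (y - J t y)))) := by
  have hr := h.res
  have e1 := fun z => hr.half ht z
  have e2 := fun z => hr.half' ht z
  simp only [map_add, map_sub, map_smul, e1, e2]
  module

/-- the property `Pr m` -/
def Pr (_h : Chain Gr J G L) (m : ℝ) : Prop :=
  ∀ (k : ℕ) (t : ℝ), 1 ≤ k → 0 < t → 3600 ≤ (k : ℝ) * t → ∀ x : H,
    (inner ℝ (G k (J t (J t x))) (J t (J t x)) : ℝ) ≤ m * ‖x‖ ^ 2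

theorem pr_L (hL : 0 ≤ L) : h.Pr L := by
  intro k t _ ht _ x
  refine (h.bd _ _).trans (mul_le_mul_of_nonneg_left ?_ hL)
  have h1 := (h.res.le ht (J t x)).trans (h.res.le ht x)
  exact pow_le_pow_left₀ (norm_nonneg _) h1 2

theorem c1 {m : ℝ} (hm : 0 ≤ m) (hP : h.Pr m) [CompleteSpace H] {k : ℕ} {t : ℝ} (hk : 1 ≤ k)
    (ht : 0 < t) (hkt : 3600 ≤ (k : ℝ) * t) (x : H) :
    Real.sqrt (inner ℝ (G k (J t x)) (J t x)) ≤ 6 * (Real.sqrt m * ‖x‖) := by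
  have hr := h.res
  obtain ⟨r, hrd⟩ : ∃ r, r = Real.sqrt (1 / 2) := ⟨_, rfl⟩
  have hr0 : 0 < r := by rw [hrd]; positivity
  have hr2 : r ^ 2 = 1 / 2 := by rw [hrd]; exact Real.sq_sqrt (by norm_num)
  have hr3 : r ≤ 0.716 := by
    by_contra hh
    rw [not_le] at hh
    nlinarith
  have hr1 : r ≤ 1 := by linarith
  have hτ : ∀ i : ℕ, 0 < t / 2 ^ i := fun i => by positivity
  obtain ⟨y, hy⟩ : ∃ y, y = J t x := ⟨_, rfl⟩
  obtain ⟨v, hv⟩ : ∃ v, v = t⁻¹ • (x - J t x) := ⟨_, rfl⟩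
  have hyv : (y, v) ∈ Gr := by rw [hy, hv]; exact hr.mem t ht x
  have hyx : ‖y‖ ≤ ‖x‖ := by rw [hy]; exact hr.le ht x
  have hvx : ‖v‖ ≤ t⁻¹ * ‖x‖ := by
    rw [hv, norm_smul, Real.norm_of_nonneg (by positivity)]
    exact mul_le_mul_of_nonneg_left (hr.le' ht x) (by positivity)
  set S := Real.sqrt m * ‖x‖ with hS
  have hS0 : 0 ≤ S := by positivity
  have hS2 : S ^ 2 = m * ‖x‖ ^ 2 := by rw [hS, mul_pow, Real.sq_sqrt hm]
  have hind : ∀ n : ℕ, Real.sqrt (inner ℝ (G k (J (t / 2 ^ n) (J (t / 2 ^ n) y)))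
      (J (t / 2 ^ n) (J (t / 2 ^ n) y))) ≤ S * (6 - 5 * r ^ n) := by
    intro n
    induction n with
    | zero =>
      simp only [pow_zero, div_one]
      have h1 := hP k t hk ht hkt y
      have h2 : m * ‖y‖ ^ 2 ≤ S ^ 2 := by
        rw [hS2]
        exact mul_le_mul_of_nonneg_left (pow_le_pow_left₀ (norm_nonneg _) hyx 2) hm
      have h3 := Real.sqrt_le_sqrt (h1.trans h2)
      rw [Real.sqrt_sq hS0] at h3
      linarith
    | succ n ih =>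
      have e1 : t / 2 ^ (n + 1) = t / 2 ^ n / 2 := by rw [pow_succ]; field_simp
      obtain ⟨χ, hχ⟩ : ∃ χ, χ = (1 / 4 : ℝ) • ((3 : ℝ) • (y - J (t / 2 ^ n) y)
        + J (t / 2 ^ n) (y - J (t / 2 ^ n) y)) := ⟨_, rfl⟩
      have h1 := h.step_a (hτ n) y
      rw [← hχ, ← e1] at h1
      have h2 : ‖y - J (t / 2 ^ n) y‖ ≤ (1 / 2) ^ n * ‖x‖ := by
        refine (hr.near hyv (hτ n)).trans ?_
        have : t / 2 ^ n * ‖v‖ ≤ t / 2 ^ n * (t⁻¹ * ‖x‖) :=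
          mul_le_mul_of_nonneg_left hvx (hτ n).le
        refine this.trans (le_of_eq ?_)
        rw [one_div, inv_pow]
        field_simp
      have h3 : ‖χ‖ ≤ (1 / 2) ^ n * ‖x‖ := by
        rw [hχ, norm_smul]
        have h4 := norm_add_le ((3 : ℝ) • (y - J (t / 2 ^ n) y)) (J (t / 2 ^ n) (y - J (t / 2 ^ n) y))
        rw [norm_smul] at h4
        have h5 := hr.le (hτ n) (y - J (t / 2 ^ n) y)
        have h6 : ‖(3 : ℝ)‖ = 3 := by norm_num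
        have h7 : ‖(1 / 4 : ℝ)‖ = 1 / 4 := by norm_num
        rw [h6] at h4
        rw [h7]
        linarith
      have hk2 : 1 ≤ 2 ^ (n + 1) * k := Nat.one_le_iff_ne_zero.2 (by positivity)
      have hkt2 : 3600 ≤ ((2 ^ (n + 1) * k : ℕ) : ℝ) * (t / 2 ^ (n + 1)) := by
        push_cast
        have : (2 : ℝ) ^ (n + 1) * k * (t / 2 ^ (n + 1)) = k * t := by field_simp
        rw [this]
        exact hkt
      have h4 := hP _ _ hk2 (hτ (n + 1)) hkt2 χ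
      have h5 := h.up2 k (n + 1) (J (t / 2 ^ (n + 1)) (J (t / 2 ^ (n + 1)) χ))
      have h6 : (inner ℝ (G k (J (t / 2 ^ (n + 1)) (J (t / 2 ^ (n + 1)) χ)))
          (J (t / 2 ^ (n + 1)) (J (t / 2 ^ (n + 1)) χ)) : ℝ) ≤ (1.42 * r ^ n * S) ^ 2 := by
        refine h5.trans ((mul_le_mul_of_nonneg_left h4 (by positivity)).trans ?_)
        have h7 : ‖χ‖ ^ 2 ≤ ((1 / 2) ^ n * ‖x‖) ^ 2 := pow_le_pow_left₀ (norm_nonneg _) h3 2
        have h8 : (2 : ℝ) ^ (n + 1) * (m * ‖χ‖ ^ 2) ≤ 2 ^ (n + 1) * (m * ((1 / 2) ^ n * ‖x‖) ^ 2) := by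
          gcongr
        refine h8.trans ?_
        have h9 : (r ^ n) ^ 2 = (1 / 2) ^ n := by rw [← pow_mul, mul_comm, pow_mul, hr2]
        have h10 : (1.42 * r ^ n * S) ^ 2 = 2.0164 * ((1 / 2) ^ n * (m * ‖x‖ ^ 2)) := by
          rw [mul_pow, mul_pow, h9, hS2]; ring
        have h11 : (2 : ℝ) ^ (n + 1) * (m * ((1 / 2) ^ n * ‖x‖) ^ 2) =
            2 * ((1 / 2) ^ n * (m * ‖x‖ ^ 2)) := by
          have : (2 : ℝ) ^ n * (1 / 2) ^ n = 1 := by rw [← mul_pow]; norm_num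
          calc (2 : ℝ) ^ (n + 1) * (m * ((1 / 2) ^ n * ‖x‖) ^ 2)
              = 2 * ((2 : ℝ) ^ n * (1 / 2) ^ n) * ((1 / 2) ^ n * (m * ‖x‖ ^ 2)) := by ring
            _ = _ := by rw [this]; ring
        rw [h10, h11]
        have : 0 ≤ (1 / 2 : ℝ) ^ n * (m * ‖x‖ ^ 2) := by positivity
        linarith
      have h12 := Real.sqrt_le_sqrt h6
      rw [Real.sqrt_sq (by positivity)] at h12
      have e2 : J (t / 2 ^ (n + 1)) (J (t / 2 ^ (n + 1)) y) = J (t / 2 ^ n) (J (t / 2 ^ n) y)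
          + J (t / 2 ^ (n + 1)) (J (t / 2 ^ (n + 1)) χ) := by
        rw [← h1]; abel
      have h13 := (h.pf k).tri (J (t / 2 ^ n) (J (t / 2 ^ n) y))
        (J (t / 2 ^ (n + 1)) (J (t / 2 ^ (n + 1)) χ))
      rw [← e2] at h13
      refine h13.trans ((add_le_add ih h12).trans ?_)
      have h14 : 0 ≤ r ^ n := by positivity
      have h15 : r ^ (n + 1) = r * r ^ n := by ring
      rw [h15]
      have h16 : 0 ≤ S * r ^ n := mul_nonneg hS0 h14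
      nlinarith
  -- the limit
  have hlim : Tendsto (fun n : ℕ => J (t / 2 ^ n) (J (t / 2 ^ n) y)) atTop (𝓝 y) := by
    have hs0 : Tendsto (fun n : ℕ => t / 2 ^ n) atTop (𝓝 0) := by
      have h1 : Tendsto (fun n : ℕ => t * (1 / 2) ^ n) atTop (𝓝 (t * 0)) :=
        (tendsto_pow_atTop_nhds_zero_of_lt_one (by norm_num) (by norm_num)).const_mul t
      rw [mul_zero] at h1
      refine h1.congr fun n => ?_
      rw [one_div, inv_pow]; field_simp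
    have h1 := hr.tendsto hτ hs0 y
    rw [tendsto_iff_norm_sub_tendsto_zero] at h1 ⊢
    have h2 : Tendsto (fun n : ℕ => 2 * ‖J (t / 2 ^ n) y - y‖) atTop (𝓝 0) := by
      simpa using h1.const_mul 2
    refine squeeze_zero (fun n => norm_nonneg _) (fun n => ?_) h2
    have e : J (t / 2 ^ n) (J (t / 2 ^ n) y) - y = J (t / 2 ^ n) (J (t / 2 ^ n) y - y)
        + (J (t / 2 ^ n) y - y) := by rw [map_sub]; abel
    rw [e]
    have h3 := norm_add_le (J (t / 2 ^ n) (J (t / 2 ^ n) y - y)) (J (t / 2 ^ n) y - y)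
    have h4 := hr.le (hτ n) (J (t / 2 ^ n) y - y)
    linarith
  have hcont : Continuous fun z : H => Real.sqrt (inner ℝ (G k z) z) := by fun_prop
  have hfin := (hcont.tendsto y).comp hlim
  rw [← hy]
  refine le_of_tendsto' hfin fun n => ?_
  refine (hind n).trans ?_
  have : 0 ≤ r ^ n := by positivity
  nlinarith

/-- one step down the chain -/
theorem step_b {m : ℝ} (hm : 0 ≤ m) (hP : h.Pr m) [CompleteSpace H] {k : ℕ} {t : ℝ}
    (ht : 0 < t) (hkt : 3600 ≤ ((k : ℝ) + 1) * t) (x : H) :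
    (inner ℝ (G k (J t (J t x))) (J t (J t x)) : ℝ) ≤ inner ℝ (G (k + 1) (J t (J t x))) (J t (J t x))
      + 15 * (m * ‖x‖ ^ 2) / (((k : ℝ) + 1) * Real.sqrt (((k : ℝ) + 1) * t)) := by
  have hr := h.res
  have hk1 : (0 : ℝ) < (k : ℝ) + 1 := by positivity
  obtain ⟨w, hw⟩ : ∃ w, w = J t (J t x) := ⟨_, rfl⟩
  obtain ⟨v, hv⟩ : ∃ v, v = t⁻¹ • (x - J t x) := ⟨_, rfl⟩
  have hyv : (J t x, v) ∈ Gr := by rw [hv]; exact hr.mem t ht x
  have hwv : (w, J t v) ∈ Gr := by rw [hw]; exact hr.map hyv ht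
  have hvx : ‖v‖ ≤ t⁻¹ * ‖x‖ := by
    rw [hv, norm_smul, Real.norm_of_nonneg (by positivity)]
    exact mul_le_mul_of_nonneg_left (hr.le' ht x) (by positivity)
  rw [← hw]
  set F := (inner ℝ (G (k + 1) w) w : ℝ) with hF
  set F0 := (inner ℝ (G k w) w : ℝ) with hF0
  have hFn : 0 ≤ F := h.nn _ _
  have hs0 : 0 < Real.sqrt (((k : ℝ) + 1) * t) := Real.sqrt_pos.2 (by positivity)
  have hterm : 0 ≤ 15 * (m * ‖x‖ ^ 2) / (((k : ℝ) + 1) * Real.sqrt (((k : ℝ) + 1) * t)) := by positivity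
  rcases le_total F0 F with hle | hle
  · linarith
  · -- the interesting case
    have hK := h.kk k _ hwv
    have hcs := h.cs k _ hwv _ hwv
    have hKe : KK G k (w, J t v) (w, J t v) = inner ℝ (G (k + 1) w) (J t v)
        + ((k : ℝ) + 1) * (F - F0) / 2 := by
      unfold KK
      simp only
      rw [h.sa (k + 1) (J t v) w, real_inner_comm (G (k + 1) w) (J t v)]
      ring
    set K := KK G k (w, J t v) (w, J t v) with hKd
    simp only at hcs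
    have e1 : (inner ℝ (J t v) (G (k + 1) w) : ℝ) = inner ℝ (G (k + 1) w) (J t v) := real_inner_comm _ _
    rw [e1] at hcs
    have e2 : (inner ℝ (G (k + 1) w) (J t v) : ℝ) - K = ((k : ℝ) + 1) * (F0 - F) / 2 := by
      rw [hKe]; ring
    rw [e2] at hcs
    have hX : 0 ≤ ((k : ℝ) + 1) * (F0 - F) := mul_nonneg hk1.le (by linarith)
    -- bound of K
    have hFm : F ≤ m * ‖x‖ ^ 2 := by
      have := hP (k + 1) t (by omega) ht (by push_cast; exact hkt) x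
      rw [← hw] at this
      exact this
    have hN1 : Real.sqrt F ≤ Real.sqrt m * ‖x‖ := by
      have h1 := Real.sqrt_le_sqrt hFm
      rwa [Real.sqrt_mul hm, Real.sqrt_sq (norm_nonneg _)] at h1
    have hN2 : Real.sqrt (inner ℝ (G (k + 1) (J t v)) (J t v)) ≤ 6 * (Real.sqrt m * (t⁻¹ * ‖x‖)) := by
      refine (h.c1 hm hP (k := k + 1) (by omega) ht (by push_cast; exact hkt) v).trans ?_
      gcongr
    have hKb : K ≤ 6 * m * t⁻¹ * ‖x‖ ^ 2 := by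
      have h1 := (h.pf (k + 1)).le w (J t v)
      have h2 : Real.sqrt F * Real.sqrt (inner ℝ (G (k + 1) (J t v)) (J t v)) ≤
          (Real.sqrt m * ‖x‖) * (6 * (Real.sqrt m * (t⁻¹ * ‖x‖))) :=
        mul_le_mul hN1 hN2 (Real.sqrt_nonneg _) (by positivity)
      have h3 : (Real.sqrt m * ‖x‖) * (6 * (Real.sqrt m * (t⁻¹ * ‖x‖))) =
          6 * (Real.sqrt m * Real.sqrt m) * t⁻¹ * ‖x‖ ^ 2 := by ring
      rw [Real.mul_self_sqrt hm] at h3
      linarith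
    have hk3 : (0 : ℝ) < (k : ℝ) + 3 := by positivity
    have hq : (((k : ℝ) + 1) * (F0 - F)) ^ 2 ≤ (15 * (m * ‖x‖ ^ 2) / Real.sqrt (((k : ℝ) + 1) * t)) ^ 2 := by
      have h1 : 9 / ((k : ℝ) + 3) * K * F ≤ 9 / ((k : ℝ) + 1) * (6 * m * t⁻¹ * ‖x‖ ^ 2) * (m * ‖x‖ ^ 2) := by
        have h2 : 9 / ((k : ℝ) + 3) ≤ 9 / ((k : ℝ) + 1) := by gcongr; linarith
        have h3 : 0 ≤ 6 * m * t⁻¹ * ‖x‖ ^ 2 := by positivity
        have h4 : 9 / ((k : ℝ) + 3) * K ≤ 9 / ((k : ℝ) + 1) * (6 * m * t⁻¹ * ‖x‖ ^ 2) :=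
          mul_le_mul h2 hKb hK (by positivity)
        exact mul_le_mul h4 hFm hFn (by positivity)
      rw [div_pow, Real.sq_sqrt (by positivity)]
      have h5 : (((k : ℝ) + 1) * (F0 - F)) ^ 2 = 4 * (((k : ℝ) + 1) * (F0 - F) / 2) ^ 2 := by ring
      rw [h5]
      have h6 : 4 * (9 / ((k : ℝ) + 1) * (6 * m * t⁻¹ * ‖x‖ ^ 2) * (m * ‖x‖ ^ 2)) =
          216 * (m * ‖x‖ ^ 2) ^ 2 / (((k : ℝ) + 1) * t) := by
        field_simp; ring
      have h7 : 216 * (m * ‖x‖ ^ 2) ^ 2 / (((k : ℝ) + 1) * t) ≤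
          (15 * (m * ‖x‖ ^ 2)) ^ 2 / (((k : ℝ) + 1) * t) := by
        gcongr
        nlinarith [sq_nonneg (m * ‖x‖ ^ 2)]
      linarith
    have h8 := abs_le_of_sq_le_sq' hq (by positivity)
    have h9 := h8.2
    have h10 : F0 - F ≤ 15 * (m * ‖x‖ ^ 2) / (((k : ℝ) + 1) * Real.sqrt (((k : ℝ) + 1) * t)) := by
      rw [le_div_iff₀ (by positivity)]
      rw [le_div_iff₀ hs0] at h9
      linarith
    linarith

omit h in
theorem sqrt_step (k : ℝ) (hk : 1 ≤ k) :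
    1 / ((k + 1) * Real.sqrt (k + 1)) ≤ 2 * (1 / Real.sqrt k - 1 / Real.sqrt (k + 1)) := by
  have h0 : 0 < Real.sqrt k := Real.sqrt_pos.2 (by linarith)
  have h1 : 0 < Real.sqrt (k + 1) := Real.sqrt_pos.2 (by linarith)
  have h2 : Real.sqrt k ^ 2 = k := Real.sq_sqrt (by linarith)
  have h3 : Real.sqrt (k + 1) ^ 2 = k + 1 := Real.sq_sqrt (by linarith)
  have h4 : Real.sqrt k ≤ Real.sqrt (k + 1) := Real.sqrt_le_sqrt (by linarith)
  set a := Real.sqrt k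
  set b := Real.sqrt (k + 1)
  have h5 : b ^ 2 - a ^ 2 = 1 := by rw [h2, h3]; ring
  have h6 : 1 / a - 1 / b = 1 / (a * b * (a + b)) := by
    have : (b - a) * (a + b) = 1 := by nlinarith
    field_simp
    nlinarith
  rw [h6, ← h3, mul_one_div, div_le_div_iff₀ (by positivity) (by positivity)]
  nlinarith [mul_pos h0 h1, mul_nonneg h1.le (sub_nonneg.2 h4), mul_pos h1 h1,
    mul_nonneg (mul_nonneg h1.le h1.le) (sub_nonneg.2 h4), mul_nonneg (mul_nonneg h1.le h0.le) (sub_nonneg.2 h4)]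

theorem tele {m : ℝ} (hm : 0 ≤ m) (hP : h.Pr m) [CompleteSpace H] {k : ℕ} {t : ℝ} (hk : 1 ≤ k)
    (ht : 0 < t) (hkt : 3600 ≤ (k : ℝ) * t) (x : H) (n : ℕ) :
    (inner ℝ (G k (J t (J t x))) (J t (J t x)) : ℝ) ≤ inner ℝ (G (k + n) (J t (J t x))) (J t (J t x))
      + 30 * (m * ‖x‖ ^ 2) / Real.sqrt t * (1 / Real.sqrt k - 1 / Real.sqrt (k + n : ℕ)) := by
  induction n with
  | zero => simp
  | succ n ih =>
    have hkn : (1 : ℝ) ≤ ((k + n : ℕ) : ℝ) := by exact_mod_cast (by omega : 1 ≤ k + n)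
    have h1 := h.step_b hm hP (k := k + n) ht (by
      push_cast
      have : (0 : ℝ) ≤ n := Nat.cast_nonneg n
      nlinarith) x
    have h2 := sqrt_step ((k + n : ℕ) : ℝ) hkn
    have hst : 0 < Real.sqrt t := Real.sqrt_pos.2 ht
    have h3 : 15 * (m * ‖x‖ ^ 2) / ((((k + n : ℕ) : ℝ) + 1) * Real.sqrt ((((k + n : ℕ) : ℝ) + 1) * t)) =
        15 * (m * ‖x‖ ^ 2) / Real.sqrt t * (1 / ((((k + n : ℕ) : ℝ) + 1) * Real.sqrt (((k + n : ℕ) : ℝ) + 1))) := by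
      rw [Real.sqrt_mul (by positivity)]
      have : 0 < Real.sqrt (((k + n : ℕ) : ℝ) + 1) := Real.sqrt_pos.2 (by positivity)
      field_simp
    have h4 : 15 * (m * ‖x‖ ^ 2) / Real.sqrt t * (1 / ((((k + n : ℕ) : ℝ) + 1) * Real.sqrt (((k + n : ℕ) : ℝ) + 1))) ≤
        15 * (m * ‖x‖ ^ 2) / Real.sqrt t * (2 * (1 / Real.sqrt ((k + n : ℕ) : ℝ) - 1 / Real.sqrt (((k + n : ℕ) : ℝ) + 1))) :=
      mul_le_mul_of_nonneg_left h2 (by positivity)
    have e1 : ((k + (n + 1) : ℕ) : ℝ) = ((k + n : ℕ) : ℝ) + 1 := by push_cast; ring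
    have e2 : k + (n + 1) = k + n + 1 := rfl
    rw [e1, e2]
    rw [h3] at h1
    have h5 : 30 * (m * ‖x‖ ^ 2) / Real.sqrt t = 2 * (15 * (m * ‖x‖ ^ 2) / Real.sqrt t) := by ring
    rw [h5] at ih ⊢
    linarith

theorem pr_step {m : ℝ} (hm : 0 ≤ m) (hP : h.Pr m) [CompleteSpace H] : h.Pr (1 + m / 2) := by
  intro k t hk ht hkt x
  have hk0 : (1 : ℝ) ≤ k := by exact_mod_cast hk
  have hst : 0 < Real.sqrt t := Real.sqrt_pos.2 ht
  have hsk : 0 < Real.sqrt (k : ℝ) := Real.sqrt_pos.2 (by linarith)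
  have hw : ‖J t (J t x)‖ ≤ ‖x‖ := (h.res.le ht (J t x)).trans (h.res.le ht x)
  have h1 : ∀ n : ℕ, (inner ℝ (G k (J t (J t x))) (J t (J t x)) : ℝ) ≤
      inner ℝ (G (k + n) (J t (J t x))) (J t (J t x)) + m / 2 * ‖x‖ ^ 2 := by
    intro n
    have h2 := h.tele hm hP hk ht hkt x n
    have h3 : 0 ≤ 1 / Real.sqrt ((k + n : ℕ) : ℝ) := by positivity
    have h4 : 30 * (m * ‖x‖ ^ 2) / Real.sqrt t * (1 / Real.sqrt k - 1 / Real.sqrt (k + n : ℕ)) ≤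
        30 * (m * ‖x‖ ^ 2) / Real.sqrt t * (1 / Real.sqrt k) :=
      mul_le_mul_of_nonneg_left (by linarith) (by positivity)
    have h5 : 30 * (m * ‖x‖ ^ 2) / Real.sqrt t * (1 / Real.sqrt k) ≤ m / 2 * ‖x‖ ^ 2 := by
      rw [div_mul_div_comm, mul_one, ← Real.sqrt_mul ht.le, div_le_iff₀ (Real.sqrt_pos.2 (by positivity))]
      have h6 : 60 ≤ Real.sqrt (t * k) := by
        rw [Real.le_sqrt' (by norm_num)]
        linarith
      have h7 : 0 ≤ m * ‖x‖ ^ 2 := by positivity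
      nlinarith
    linarith
  have h2 : Tendsto (fun n : ℕ => (inner ℝ (G (k + n) (J t (J t x))) (J t (J t x)) : ℝ)
      + m / 2 * ‖x‖ ^ 2) atTop (𝓝 (‖J t (J t x)‖ ^ 2 + m / 2 * ‖x‖ ^ 2)) := by
    refine Tendsto.add_const _ ?_
    have h3 := (h.lim (J t (J t x))).comp (tendsto_add_atTop_nat k)
    refine h3.congr fun n => ?_
    simp only [Function.comp, add_comm]
  have h3 := ge_of_tendsto' h2 h1
  have h4 : ‖J t (J t x)‖ ^ 2 ≤ ‖x‖ ^ 2 := pow_le_pow_left₀ (norm_nonneg _) hw 2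
  nlinarith

theorem pr_two (hL : 0 ≤ L) [CompleteSpace H] : h.Pr 2 := by
  have h1 : ∀ n : ℕ, h.Pr (2 + L * (1 / 2) ^ n) := by
    intro n
    induction n with
    | zero =>
      intro k t hk ht hkt x
      refine (h.pr_L hL k t hk ht hkt x).trans ?_
      have := sq_nonneg ‖x‖
      nlinarith
    | succ n ih =>
      have h2 := h.pr_step (by positivity) ih
      have e : 1 + (2 + L * (1 / 2) ^ n) / 2 = 2 + L * (1 / 2) ^ (n + 1) := by rw [pow_succ]; ring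
      rwa [e] at h2
  intro k t hk ht hkt x
  have h2 : Tendsto (fun n : ℕ => (2 + L * (1 / 2) ^ n) * ‖x‖ ^ 2) atTop (𝓝 ((2 + L * 0) * ‖x‖ ^ 2)) :=
    (((tendsto_pow_atTop_nhds_zero_of_lt_one (by norm_num) (by norm_num)).const_mul L).const_add 2).mul_const _
  have h3 := ge_of_tendsto' h2 fun n => h1 n k t hk ht hkt x
  simpa using h3

/-- **(B)**: `⟨G 1 J_t x, J_t x⟩ ≤ 361² t⁻¹ ‖x‖²`, one single resolvent -/
theorem bb (hL : 0 ≤ L) [CompleteSpace H] {t : ℝ} (ht : 0 < t) (ht1 : t ≤ 1) (x : H) :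
    Real.sqrt (inner ℝ (G 1 (J t x)) (J t x)) ≤ 361 / Real.sqrt t * ‖x‖ := by
  have hst : 0 < Real.sqrt t := Real.sqrt_pos.2 ht
  obtain ⟨k, hkd⟩ : ∃ k : ℕ, k = ⌈3600 / t⌉₊ := ⟨_, rfl⟩
  have hk1 : 3600 / t ≤ k := by rw [hkd]; exact Nat.le_ceil _
  have hk2 : (k : ℝ) < 3600 / t + 1 := by
    rw [hkd]; exact Nat.ceil_lt_add_one (by positivity)
  have h36 : 3600 ≤ 3600 / t := by
    rw [le_div_iff₀ ht]; nlinarith
  have hk : 1 ≤ k := by
    have : (1 : ℝ) ≤ k := by linarith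
    exact_mod_cast this
  have hkt : 3600 ≤ (k : ℝ) * t := by
    rw [div_le_iff₀ ht] at hk1
    exact hk1
  have h1 := h.c1 (by norm_num) (h.pr_two hL) hk ht hkt x
  have h2 := h.up hk (J t x)
  have h3 : (inner ℝ (G k (J t x)) (J t x) : ℝ) ≤ 72 * ‖x‖ ^ 2 := by
    have h4 := Real.sq_sqrt (h.nn k (J t x))
    have h5 := Real.sqrt_nonneg (inner ℝ (G k (J t x)) (J t x) : ℝ)
    have h6 := pow_le_pow_left₀ h5 h1 2
    rw [h4, mul_pow, mul_pow, Real.sq_sqrt (by norm_num)] at h6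
    linarith
  refine Real.sqrt_le_iff.2 ⟨by positivity, ?_⟩
  refine h2.trans ((mul_le_mul_of_nonneg_left h3 (by positivity)).trans ?_)
  rw [mul_pow, div_pow, Real.sq_sqrt ht.le]
  have h7 : ((k : ℝ) + 1) / (((1 : ℕ) : ℝ) + 1) ≤ 1801 / t := by
    push_cast
    rw [div_le_div_iff₀ (by norm_num) ht]
    have : (k : ℝ) * t < 3600 + t := by
      have := mul_lt_mul_of_pos_right hk2 ht
      rw [add_mul, div_mul_cancel₀ _ ht.ne'] at this
      linarith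
    nlinarith
  have h8 : 0 ≤ 72 * ‖x‖ ^ 2 := by positivity
  refine (mul_le_mul_of_nonneg_right h7 h8).trans ?_
  have h9 : 0 ≤ ‖x‖ ^ 2 / t := by positivity
  have h10 : 1801 / t * (72 * ‖x‖ ^ 2) = 129672 * (‖x‖ ^ 2 / t) := by ring
  have h11 : 361 ^ 2 / t * ‖x‖ ^ 2 = 130321 * (‖x‖ ^ 2 / t) := by ring
  rw [h10, h11]
  linarith

end Chain

end Vale.Agent.P245.Abs44
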