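import Vale.Agent.P245.H44.AbsB

/-!
P245, abstract layer by resolvents only (helper44), part C: the bound `K_1(z,z) ≤ C ‖A z‖²`.
-/

set_option linter.all false

open Filter Topology
open scoped InnerProductSpace

namespace Vale.Agent.P245.Abs44

variable {H : Type*} [NormedAddCommGroup H] [InnerProductSpace ℝ H]
variable {Gr : Submodule ℝ (H × H)} {J : ℝ → H →L[ℝ] H} {G : ℕ → H →L[ℝ] H} {L : ℝ}

/-- the scale `2^{-j}` -/
noncomputable def sc (j : ℕ) : ℝ := (1 / 2) ^ j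

theorem sc_pos (j : ℕ) : 0 < sc j := by unfold sc; positivity
theorem sc_le (j : ℕ) : sc j ≤ 1 := pow_le_one₀ (by norm_num) (by norm_num)
theorem sc_succ (j : ℕ) : sc (j + 1) = sc j / 2 := by unfold sc; rw [pow_succ]; ring

/-- the smoothing `3 J² - 2 J³` at scale `2^{-j}` -/
noncomputable def ps (J : ℝ → H →L[ℝ] H) (j : ℕ) (x : H) : H :=
  (3 : ℝ) • J (sc j) (J (sc j) x) - (2 : ℝ) • J (sc j) (J (sc j) (J (sc j) x))

/-- `y_j = J_{j+1} v - J_{j+1}² v` -/
noncomputable def yy (J : ℝ → H →L[ℝ] H) (j : ℕ) (x : H) : H :=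
  J (sc (j + 1)) x - J (sc (j + 1)) (J (sc (j + 1)) x)

/-- `q(J_j) y_j`, `q(a) = 9/2 + 7/2 a + a²` -/
noncomputable def tt (J : ℝ → H →L[ℝ] H) (j : ℕ) (x : H) : H :=
  (9 / 2 : ℝ) • yy J j x + (7 / 2 : ℝ) • J (sc j) (yy J j x) + J (sc j) (J (sc j) (yy J j x))

namespace Res

variable (h : Res Gr J)
include h

theorem ps_diff (j : ℕ) (x : H) :
    ps J (j + 1) x - ps J j x = J (sc (j + 1)) ((1 / 2 : ℝ) • (tt J j x - J (sc j) (tt J j x))) := by
  have e1 := fun z => h.half (sc_pos j) z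
  have e2 := fun z => h.half' (sc_pos j) z
  unfold ps tt yy
  rw [sc_succ]
  simp only [map_add, map_sub, map_smul, e1, e2]
  module

theorem tt_comm (j : ℕ) (x : H) : tt J j (J (sc j) x) = J (sc j) (tt J j x) := by
  have e1 := fun z => h.half (sc_pos j) z
  have e2 := fun z => h.half' (sc_pos j) z
  unfold tt yy
  rw [sc_succ]
  simp only [map_add, map_sub, map_smul, e1, e2]

omit h in
theorem tt_smul (j : ℕ) (c : ℝ) (x : H) : tt J j (c • x) = c • tt J j x := by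
  unfold tt yy
  simp only [map_add, map_sub, map_smul]
  module

omit h in
theorem tt_sub (j : ℕ) (x y : H) : tt J j (x - y) = tt J j x - tt J j y := by
  unfold tt yy
  simp only [map_add, map_sub, map_smul]
  module

theorem ps_diff' {p : H × H} (hp : p ∈ Gr) (j : ℕ) :
    ps J (j + 1) p.1 - ps J j p.1 =
      (sc j) • J (sc (j + 1)) ((1 / 2 : ℝ) • J (sc j) (tt J j p.2)) := by
  rw [h.ps_diff]
  have h1 : tt J j p.1 - J (sc j) (tt J j p.1) = (sc j) • J (sc j) (tt J j p.2) := by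
    rw [← h.tt_comm, ← tt_sub, h.sub_eq hp (sc_pos j), tt_smul, h.tt_comm]
  rw [h1, smul_comm, map_smul]

theorem ps_mem {p : H × H} (hp : p ∈ Gr) (j : ℕ) : (ps J j p.1, ps J j p.2) ∈ Gr := by
  have h1 := h.map hp (sc_pos j)
  have h2 := h.map h1 (sc_pos j)
  have h3 := h.map h2 (sc_pos j)
  exact Gr.sub_mem (Gr.smul_mem 3 h2) (Gr.smul_mem 2 h3)

theorem tt_norm (j : ℕ) (x : H) : ‖tt J j x‖ ≤ 9 * ‖yy J j x‖ := by
  unfold tt
  have h1 := h.le (sc_pos j) (yy J j x)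
  have h2 := h.le (sc_pos j) (J (sc j) (yy J j x))
  have h3 := norm_add_le ((9 / 2 : ℝ) • yy J j x + (7 / 2 : ℝ) • J (sc j) (yy J j x))
    (J (sc j) (J (sc j) (yy J j x)))
  have h4 := norm_add_le ((9 / 2 : ℝ) • yy J j x) ((7 / 2 : ℝ) • J (sc j) (yy J j x))
  rw [norm_smul, norm_smul] at h4
  have e1 : ‖(9 / 2 : ℝ)‖ = 9 / 2 := by norm_num
  have e2 : ‖(7 / 2 : ℝ)‖ = 7 / 2 := by norm_num
  rw [e1, e2] at h4
  linarith

theorem yy_norm (j : ℕ) (x : H) : ‖yy J j x‖ ≤ ‖x‖ := by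
  unfold yy
  exact (h.le' (sc_pos _) _).trans (h.le (sc_pos _) _)

/-- square function: `‖y_j‖² ≤ 2 (⟨J_{j+2} v, v⟩ - ⟨J_{j+1} v, v⟩)` -/
theorem yy_sq (j : ℕ) (x : H) :
    ‖yy J j x‖ ^ 2 ≤ 2 * ((inner ℝ (J (sc (j + 2)) x) x : ℝ) - inner ℝ (J (sc (j + 1)) x) x) := by
  set b := sc (j + 1) with hb
  have hb0 : 0 < b := sc_pos _
  have e0 : sc (j + 2) = b / 2 := sc_succ (j + 1)
  have hb2 : 0 < b / 2 := by positivity
  obtain ⟨u, hu⟩ : ∃ u, u = x - J b x := ⟨_, rfl⟩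
  have e1 : yy J j x = J b u := by unfold yy; rw [hu, map_sub]
  rw [e1, e0]
  have h1 := h.ge hb0 u
  -- ⟨b u, u⟩ ≤ ⟨b u, x⟩
  have h2 : (inner ℝ (J b u) u : ℝ) ≤ inner ℝ (J b u) x := by
    have h3 : (inner ℝ (J b u) u : ℝ) = inner ℝ (J b u) x - inner ℝ (J b u) (J b x) := by
      rw [hu, inner_sub_right]
    have h4 : (0 : ℝ) ≤ inner ℝ (J b u) (J b x) := by
      have h5 : J b u = J b x - J b (J b x) := by rw [hu, map_sub]
      rw [h5, inner_sub_left, real_inner_self_eq_norm_sq]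
      have h6 := h.le_one hb0 (J b x)
      linarith
    linarith
  -- ⟨b u, x⟩ ≤ ⟨(b/2) u, x⟩
  have h7 : (inner ℝ (J b u) x : ℝ) ≤ inner ℝ (J (b / 2) u) x := by
    -- b' - b = b' (1 - b) / 2
    have h8 : J (b / 2) u - J b u = (1 / 2 : ℝ) • J (b / 2) (u - J b u) := by
      rw [map_sub, h.half hb0]; module
    have h9 : (inner ℝ (J (b / 2) (u - J b u)) x : ℝ) = inner ℝ (J (b / 2) u) u := by
      have h10 : (inner ℝ (J (b / 2) (J b u)) x : ℝ) = inner ℝ (J (b / 2) u) (J b x) := by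
        rw [h.comm hb2 hb0, h.sa hb0]
      have h10' : (inner ℝ (J (b / 2) u) u : ℝ) = inner ℝ (J (b / 2) u) (x - J b x) := by rw [← hu]
      rw [map_sub, inner_sub_left, h10, h10', inner_sub_right]
    have h11 := h.nn hb2 u
    have h12 : (inner ℝ (J (b / 2) u - J b u) x : ℝ) = 1 / 2 * inner ℝ (J (b / 2) u) u := by
      rw [h8, real_inner_smul_left, h9]
    rw [inner_sub_left] at h12
    linarith
  -- ⟨(b/2) u, x⟩ = 2 ⟨(b' - b) x, x⟩
  have h13 : J (b / 2) u = (2 : ℝ) • (J (b / 2) x - J b x) := by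
    rw [hu, map_sub, h.half hb0]; module
  rw [h13, real_inner_smul_left, inner_sub_left] at h7
  linarith

theorem yy_sum (n : ℕ) (x : H) : ∑ j ∈ Finset.range n, ‖yy J j x‖ ^ 2 ≤ 2 * ‖x‖ ^ 2 := by
  have h1 : ∑ j ∈ Finset.range n, ‖yy J j x‖ ^ 2 ≤
      2 * ((inner ℝ (J (sc (n + 1)) x) x : ℝ) - inner ℝ (J (sc 1) x) x) := by
    induction n with
    | zero => simp
    | succ n ih =>
      rw [Finset.sum_range_succ]
      have h2 := h.yy_sq n x
      linarith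
  have h2 := h.le_one (sc_pos (n + 1)) x
  have h3 := h.nn (sc_pos 1) x
  linarith

theorem tend_comp [CompleteSpace H] {f : ℕ → H} {x : H} (hf : Tendsto f atTop (𝓝 x)) :
    Tendsto (fun n => J (sc n) (f n)) atTop (𝓝 x) := by
  have hs0 : Tendsto sc atTop (𝓝 0) :=
    tendsto_pow_atTop_nhds_zero_of_lt_one (by norm_num) (by norm_num)
  have h1 := h.tendsto sc_pos hs0 x
  rw [tendsto_iff_norm_sub_tendsto_zero] at h1 hf ⊢
  have h2 : Tendsto (fun n : ℕ => ‖f n - x‖ + ‖J (sc n) x - x‖) atTop (𝓝 0) := by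
    simpa using hf.add h1
  refine squeeze_zero (fun n => norm_nonneg _) (fun n => ?_) h2
  have e : J (sc n) (f n) - x = J (sc n) (f n - x) + (J (sc n) x - x) := by rw [map_sub]; abel
  rw [e]
  have h3 := norm_add_le (J (sc n) (f n - x)) (J (sc n) x - x)
  have h4 := h.le (sc_pos n) (f n - x)
  linarith

theorem tend_ps [CompleteSpace H] (x : H) : Tendsto (fun n => ps J n x) atTop (𝓝 x) := by
  have h1 := h.tend_comp (tendsto_const_nhds (x := x))
  have h2 := h.tend_comp h1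
  have h3 := h.tend_comp h2
  have h4 := (h2.const_smul (3 : ℝ)).sub (h3.const_smul (2 : ℝ))
  have e : (3 : ℝ) • x - (2 : ℝ) • x = x := by module
  rw [e] at h4
  exact h4

end Res

namespace Chain

variable (h : Chain Gr J G L)
include h

/-- the form `K_1` on the graph is nonnegative and symmetric -/
theorem pfK : PF (fun p q : Gr => KK G 0 p.1 q.1) where
  add x y z := by
    unfold KK
    simp only [Submodule.coe_add, Prod.fst_add, Prod.snd_add, map_add, inner_add_left]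
    ring
  smul c x y := by
    unfold KK
    simp only [Submodule.coe_smul, Prod.smul_fst, Prod.smul_snd, map_smul, real_inner_smul_left]
    ring
  symm x y := by
    unfold KK
    rw [h.sa _ x.1.1 y.1.2, h.sa _ x.1.2 y.1.1, h.sa _ x.1.1 y.1.1, h.sa 0 x.1.1 y.1.1,
      real_inner_comm _ x.1.1, real_inner_comm _ x.1.2, real_inner_comm (G (0 + 1) y.1.1) x.1.1,
      real_inner_comm (G 0 y.1.1) x.1.1]
    ring
  nn x := h.kk 0 x.1 x.2

theorem csK {P d : H × H} (hP : P ∈ Gr) (hd : d ∈ Gr) :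
    KK G 0 P d ≤ (Real.sqrt (inner ℝ (G 1 P.2) P.2) + Real.sqrt 3 * Real.sqrt (KK G 0 P P)) *
      Real.sqrt (inner ℝ (G 1 d.1) d.1) := by
  have h1 := h.cs 0 P hP d hd
  have h2 := Real.abs_le_sqrt h1
  have e : (9 / (((0 : ℕ) : ℝ) + 3)) * KK G 0 P P * inner ℝ (G (0 + 1) d.1) d.1 =
      3 * KK G 0 P P * inner ℝ (G 1 d.1) d.1 := by norm_num
  have hK := h.kk 0 P hP
  rw [e, Real.sqrt_mul (by positivity), Real.sqrt_mul (by norm_num)] at h2
  have h3 := (h.pf 1).abs_le P.2 d.1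
  have h4 : (inner ℝ P.2 (G (0 + 1) d.1) : ℝ) = inner ℝ (G 1 P.2) d.1 := (h.sa 1 _ _).symm
  rw [h4] at h2
  have h5 := abs_le.1 h2
  have h6 := abs_le.1 h3
  nlinarith [h5.1, h5.2, h6.1, h6.2]

end Chain

end Vale.Agent.P245.Abs44
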