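import Vale.Agent.P245.H44.AbsC

/-!
P245, abstract layer by resolvents only (helper44), last part: `K_1(z,z) ≤ 10^12 ‖A z‖²`.
-/

set_option linter.all false

open Filter Topology
open scoped InnerProductSpace

namespace Vale.Agent.P245.Abs44

variable {H : Type*} [NormedAddCommGroup H] [InnerProductSpace ℝ H]
variable {Gr : Submodule ℝ (H × H)} {J : ℝ → H →L[ℝ] H} {G : ℕ → H →L[ℝ] H} {L : ℝ}

namespace Chain

variable (h : Chain Gr J G L)
include h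

/-- `N x = ⟨G 1 x, x⟩^{1/2}` -/
theorem nn_scale {t : ℝ} (ht : 0 < t) (ht1 : t ≤ 1) (hL : 0 ≤ L) [CompleteSpace H] (x : H) {b : ℝ}
    (hb : ‖x‖ ≤ b) : Real.sqrt (inner ℝ (G 1 (J t x)) (J t x)) ≤ 361 / Real.sqrt t * b :=
  (h.bb hL ht ht1 x).trans (mul_le_mul_of_nonneg_left hb (by positivity))

theorem tri1 (x y : H) : Real.sqrt (inner ℝ (G 1 (x + y)) (x + y)) ≤
    Real.sqrt (inner ℝ (G 1 x) x) + Real.sqrt (inner ℝ (G 1 y) y) := (h.pf 1).tri x y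

variable (hL : 0 ≤ L) [CompleteSpace H]
include hL

theorem dv (v : H) (j : ℕ) :
    Real.sqrt (inner ℝ (G 1 (ps J (j + 1) v - ps J j v)) (ps J (j + 1) v - ps J j v)) ≤
      361 / Real.sqrt (sc (j + 1)) * (9 / 2 * ‖yy J j v‖) := by
  have hr := h.res
  rw [hr.ps_diff]
  refine h.nn_scale (sc_pos _) (sc_le _) hL _ ?_
  rw [norm_smul]
  have h1 := hr.le' (sc_pos j) (tt J j v)
  have h2 := hr.tt_norm j v
  have e : ‖(1 / 2 : ℝ)‖ = 1 / 2 := by norm_num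
  rw [e]
  linarith

theorem dz {p : H × H} (hp : p ∈ Gr) (j : ℕ) :
    Real.sqrt (inner ℝ (G 1 (ps J (j + 1) p.1 - ps J j p.1)) (ps J (j + 1) p.1 - ps J j p.1)) ≤
      sc j * (361 / Real.sqrt (sc (j + 1)) * (9 / 2 * ‖yy J j p.2‖)) := by
  have hr := h.res
  rw [hr.ps_diff' hp]
  have h0 := (h.pf 1).nsmul (sc j) (sc_pos j).le (J (sc (j + 1)) ((1 / 2 : ℝ) • J (sc j) (tt J j p.2)))
  rw [h0]
  refine mul_le_mul_of_nonneg_left ?_ (sc_pos j).le
  refine h.nn_scale (sc_pos _) (sc_le _) hL _ ?_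
  rw [norm_smul]
  have h1 := hr.le (sc_pos j) (tt J j p.2)
  have h2 := hr.tt_norm j p.2
  have e : ‖(1 / 2 : ℝ)‖ = 1 / 2 := by norm_num
  rw [e]
  linarith

theorem base (x : H) : Real.sqrt (inner ℝ (G 1 (ps J 0 x)) (ps J 0 x)) ≤ 1805 * ‖x‖ := by
  have hr := h.res
  have e0 : sc 0 = 1 := by unfold sc; simp
  have e1 : ps J 0 x = J 1 ((3 : ℝ) • J 1 x - (2 : ℝ) • J 1 (J 1 x)) := by
    unfold ps
    rw [e0, map_sub, map_smul, map_smul]
  rw [e1]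
  have h1 := h.nn_scale one_pos le_rfl hL ((3 : ℝ) • J 1 x - (2 : ℝ) • J 1 (J 1 x)) (b := 5 * ‖x‖) (by
    have h2 := norm_sub_le ((3 : ℝ) • J 1 x) ((2 : ℝ) • J 1 (J 1 x))
    rw [norm_smul, norm_smul] at h2
    have h3 := hr.le one_pos x
    have h4 := hr.le one_pos (J 1 x)
    have e2 : ‖(3 : ℝ)‖ = 3 := by norm_num
    have e3 : ‖(2 : ℝ)‖ = 2 := by norm_num
    rw [e2, e3] at h2
    linarith)
  rw [Real.sqrt_one, div_one] at h1
  linarith

omit h [CompleteSpace H] hL in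
theorem sq_sc (j : ℕ) : Real.sqrt (sc (j + 1)) = Real.sqrt (sc j) / Real.sqrt 2 := by
  rw [sc_succ, Real.sqrt_div (sc_pos j).le]

/-- `φ_j = 2^{-j/2} N(v_j)`, recursion for the squares -/
theorem phi_rec (v : H) (j : ℕ) :
    (Real.sqrt (sc (j + 1)) * Real.sqrt (inner ℝ (G 1 (ps J (j + 1) v)) (ps J (j + 1) v))) ^ 2 ≤
      3 / 4 * (Real.sqrt (sc j) * Real.sqrt (inner ℝ (G 1 (ps J j v)) (ps J j v))) ^ 2
        + 3 * 1625 ^ 2 * ‖yy J j v‖ ^ 2 := by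
  have h1 := h.dv hL v j
  have h2 := h.tri1 (ps J j v) (ps J (j + 1) v - ps J j v)
  rw [add_sub_cancel] at h2
  set N0 := Real.sqrt (inner ℝ (G 1 (ps J j v)) (ps J j v)) with hN0
  set N1 := Real.sqrt (inner ℝ (G 1 (ps J (j + 1) v)) (ps J (j + 1) v)) with hN1
  set y := ‖yy J j v‖ with hy
  have hy0 : 0 ≤ y := norm_nonneg _
  have hN00 : 0 ≤ N0 := Real.sqrt_nonneg _
  have hN10 : 0 ≤ N1 := Real.sqrt_nonneg _
  have hs1 : 0 < Real.sqrt (sc (j + 1)) := Real.sqrt_pos.2 (sc_pos _)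
  have hs0 : 0 < Real.sqrt (sc j) := Real.sqrt_pos.2 (sc_pos _)
  have h3 : Real.sqrt (sc (j + 1)) * N1 ≤ Real.sqrt (sc (j + 1)) * N0 + 1625 * y := by
    have h4 : Real.sqrt (sc (j + 1)) * (361 / Real.sqrt (sc (j + 1)) * (9 / 2 * y)) = 361 * (9 / 2 * y) := by
      field_simp
    have h5 : Real.sqrt (sc (j + 1)) * N1 ≤ Real.sqrt (sc (j + 1)) * (N0 + 361 / Real.sqrt (sc (j + 1)) * (9 / 2 * y)) :=
      mul_le_mul_of_nonneg_left (by linarith) hs1.le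
    rw [mul_add, h4] at h5
    linarith
  have h6 := pow_le_pow_left₀ (by positivity) h3 2
  have h7 : (Real.sqrt (sc (j + 1)) * N0) ^ 2 = 1 / 2 * (Real.sqrt (sc j) * N0) ^ 2 := by
    rw [mul_pow, mul_pow, Real.sq_sqrt (sc_pos _).le, Real.sq_sqrt (sc_pos _).le, sc_succ]
    ring
  set X := Real.sqrt (sc (j + 1)) * N0 with hX
  have h8 : (X + 1625 * y) ^ 2 ≤ 3 / 2 * X ^ 2 + 3 * (1625 * y) ^ 2 := by
    nlinarith [sq_nonneg (X - 2 * (1625 * y))]
  rw [h7] at h8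
  nlinarith

theorem phi_sum (v : H) (n : ℕ) :
    ∑ j ∈ Finset.range (n + 1), (Real.sqrt (sc j) * Real.sqrt (inner ℝ (G 1 (ps J j v)) (ps J j v))) ^ 2
      ≤ 76407100 * ‖v‖ ^ 2 := by
  have hr := h.res
  set φ : ℕ → ℝ := fun j => Real.sqrt (sc j) * Real.sqrt (inner ℝ (G 1 (ps J j v)) (ps J j v)) with hφ
  have hrec : ∀ j, φ (j + 1) ^ 2 ≤ 3 / 4 * φ j ^ 2 + 3 * 1625 ^ 2 * ‖yy J j v‖ ^ 2 := fun j =>
    h.phi_rec hL v j
  have h1 : ∀ n, (∑ j ∈ Finset.range (n + 1), φ j ^ 2) + 3 * φ n ^ 2 ≤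
      4 * φ 0 ^ 2 + 12 * 1625 ^ 2 * ∑ j ∈ Finset.range n, ‖yy J j v‖ ^ 2 := by
    intro n
    induction n with
    | zero => simp; linarith
    | succ n ih =>
      rw [Finset.sum_range_succ (fun j => φ j ^ 2) (n + 1), Finset.sum_range_succ (fun j => ‖yy J j v‖ ^ 2) n]
      have := hrec n
      linarith
  have h2 := h1 n
  have h3 := hr.yy_sum n v
  have h4 : φ 0 ^ 2 ≤ (1805 * ‖v‖) ^ 2 := by
    have e0 : sc 0 = 1 := by unfold sc; simp
    have h5 := h.base hL v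
    have h6 : φ 0 = Real.sqrt (inner ℝ (G 1 (ps J 0 v)) (ps J 0 v)) := by
      rw [hφ]; simp only [e0, Real.sqrt_one, one_mul]
    rw [h6]
    exact pow_le_pow_left₀ (Real.sqrt_nonneg _) h5 2
  have h5 : 0 ≤ φ n ^ 2 := sq_nonneg _
  show ∑ j ∈ Finset.range (n + 1), φ j ^ 2 ≤ _
  nlinarith

omit h [CompleteSpace H] hL in
theorem real_kstep {σ r y N0 N1 k0 k1 V : ℝ} (hσ0 : 0 < σ) (h20 : 0 < r) (h2u : r ≤ 1.41422)
    (hy0 : 0 ≤ y) (hN00 : 0 ≤ N0) (hN10 : 0 ≤ N1) (hk00 : 0 ≤ k0) (hk10 : 0 ≤ k1) (hy : y ≤ V) :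
    ((N0 + N1) + 1.7321 * (k0 + k1)) * (2298 * σ * y) ≤
      (2775 * y ^ 2 + 1149 * (σ * N0) ^ 2 + 1626 * (σ / r * N1) ^ 2) + 3981 * V * σ * (k0 + k1) := by
  have e1 : (σ * N1) = r * (σ / r * N1) := by field_simp
  obtain ⟨φ0, hφ0⟩ : ∃ φ, φ = σ * N0 := ⟨_, rfl⟩
  obtain ⟨φ1, hφ1⟩ : ∃ φ, φ = σ / r * N1 := ⟨_, rfl⟩
  have hφ10 : 0 ≤ φ1 := by rw [hφ1]; positivity
  have hφ00 : 0 ≤ φ0 := by rw [hφ0]; positivity
  have h6 : ((N0 + N1) + 1.7321 * (k0 + k1)) * (2298 * σ * y) =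
      2298 * y * (σ * N0 + σ * N1) + 1.7321 * 2298 * (σ * y) * (k0 + k1) := by
    ring
  rw [h6, e1, ← hφ0, ← hφ1]
  have h8 : r * φ1 ≤ 1.41422 * φ1 := mul_le_mul_of_nonneg_right h2u hφ10
  have h9 : 2298 * y * (φ0 + r * φ1) ≤ 2298 * y * (φ0 + 1.41422 * φ1) :=
    mul_le_mul_of_nonneg_left (by linarith) (by positivity)
  have h7 : 2298 * y * (φ0 + 1.41422 * φ1) ≤ 2775 * y ^ 2 + 1149 * φ0 ^ 2 + 1626 * φ1 ^ 2 := by
    have a1 := sq_nonneg (y - φ0)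
    have a2 := sq_nonneg (y - φ1)
    nlinarith only [a1, a2]
  have h10 : 1.7321 * 2298 * (σ * y) * (k0 + k1) ≤ 3981 * V * σ * (k0 + k1) := by
    refine mul_le_mul_of_nonneg_right ?_ (by positivity)
    have b1 : σ * y ≤ σ * V := mul_le_mul_of_nonneg_left hy hσ0.le
    have b2 : 0 ≤ σ * y := mul_nonneg hσ0.le hy0
    have b3 : 3981 * V * σ = 3981 * (σ * V) := by ring
    rw [b3]
    linarith
  linarith

/-- one telescoping step for `K_1` -/
theorem kstep {p : H × H} (hp : p ∈ Gr) (j : ℕ) :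
    KK G 0 (ps J (j + 1) p.1, ps J (j + 1) p.2) (ps J (j + 1) p.1, ps J (j + 1) p.2)
      - KK G 0 (ps J j p.1, ps J j p.2) (ps J j p.1, ps J j p.2) ≤
      (2775 * ‖yy J j p.2‖ ^ 2
        + 1149 * (Real.sqrt (sc j) * Real.sqrt (inner ℝ (G 1 (ps J j p.2)) (ps J j p.2))) ^ 2
        + 1626 * (Real.sqrt (sc (j + 1)) *
            Real.sqrt (inner ℝ (G 1 (ps J (j + 1) p.2)) (ps J (j + 1) p.2))) ^ 2)
      + 3981 * ‖p.2‖ * Real.sqrt (sc j) *
        (Real.sqrt (KK G 0 (ps J j p.1, ps J j p.2) (ps J j p.1, ps J j p.2))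
          + Real.sqrt (KK G 0 (ps J (j + 1) p.1, ps J (j + 1) p.2) (ps J (j + 1) p.1, ps J (j + 1) p.2))) := by
  have hr := h.res
  have m0 := hr.ps_mem hp j
  have m1 := hr.ps_mem hp (j + 1)
  obtain ⟨P0, hP0⟩ : ∃ P : Gr, P = ⟨_, m0⟩ := ⟨_, rfl⟩
  obtain ⟨P1, hP1⟩ : ∃ P : Gr, P = ⟨_, m1⟩ := ⟨_, rfl⟩
  have hdiff := h.pfK.diff P0 P1
  have htri := h.pfK.tri P0 P1
  simp only [hP0, hP1] at hdiff htri
  have hcs := h.csK (Gr.add_mem m0 m1) (Gr.sub_mem m1 m0)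
  have hdz := h.dz hL hp j
  have htri1 := h.tri1 (ps J j p.2) (ps J (j + 1) p.2)
  have hy := hr.yy_norm j p.2
  simp only [Submodule.coe_add, AddSubgroupClass.coe_sub, Prod.mk_add_mk, Prod.mk_sub_mk] at hdiff htri hcs
  rw [hdiff]
  set N0 := Real.sqrt (inner ℝ (G 1 (ps J j p.2)) (ps J j p.2)) with hN0
  set N1 := Real.sqrt (inner ℝ (G 1 (ps J (j + 1) p.2)) (ps J (j + 1) p.2)) with hN1
  set k0 := Real.sqrt (KK G 0 (ps J j p.1, ps J j p.2) (ps J j p.1, ps J j p.2)) with hk0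
  set k1 := Real.sqrt (KK G 0 (ps J (j + 1) p.1, ps J (j + 1) p.2) (ps J (j + 1) p.1, ps J (j + 1) p.2)) with hk1
  set y := ‖yy J j p.2‖ with hyd
  have hy0 : 0 ≤ y := norm_nonneg _
  have hN00 : 0 ≤ N0 := Real.sqrt_nonneg _
  have hN10 : 0 ≤ N1 := Real.sqrt_nonneg _
  have hk00 : 0 ≤ k0 := Real.sqrt_nonneg _
  have hk10 : 0 ≤ k1 := Real.sqrt_nonneg _
  refine hcs.trans ?_
  -- the scale
  set σ := Real.sqrt (sc j) with hσ
  have hσ0 : 0 < σ := Real.sqrt_pos.2 (sc_pos _)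
  have hσ2 : sc j = σ ^ 2 := (Real.sq_sqrt (sc_pos j).le).symm
  have h2s : Real.sqrt 2 ^ 2 = 2 := Real.sq_sqrt (by norm_num)
  have h20 : 0 < Real.sqrt 2 := by positivity
  have h2u : Real.sqrt 2 ≤ 1.41422 := by
    rw [Real.sqrt_le_left (by norm_num)]; norm_num
  have h3s : Real.sqrt 3 ≤ 1.7321 := by
    rw [Real.sqrt_le_left (by norm_num)]; norm_num
  have h30 : 0 ≤ Real.sqrt 3 := Real.sqrt_nonneg _
  have hσ1 : Real.sqrt (sc (j + 1)) = σ / Real.sqrt 2 := sq_sc j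
  rw [hσ1] at hdz ⊢
  have hN : sc j * (361 / (σ / Real.sqrt 2) * (9 / 2 * y)) ≤ 2298 * σ * y := by
    have e : sc j * (361 / (σ / Real.sqrt 2) * (9 / 2 * y)) = 1624.5 * Real.sqrt 2 * (σ * y) := by
      rw [hσ2]; field_simp; ring
    rw [e]
    have : 0 ≤ σ * y := by positivity
    nlinarith
  have hd := hdz.trans hN
  have hA : Real.sqrt (inner ℝ (G 1 (ps J j p.2 + ps J (j + 1) p.2)) (ps J j p.2 + ps J (j + 1) p.2))
      + Real.sqrt 3 * Real.sqrt (KK G 0 (ps J j p.1 + ps J (j + 1) p.1, ps J j p.2 + ps J (j + 1) p.2)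
        (ps J j p.1 + ps J (j + 1) p.1, ps J j p.2 + ps J (j + 1) p.2)) ≤
      (N0 + N1) + 1.7321 * (k0 + k1) := by
    have h5 : Real.sqrt 3 * Real.sqrt (KK G 0 (ps J j p.1 + ps J (j + 1) p.1, ps J j p.2 + ps J (j + 1) p.2)
        (ps J j p.1 + ps J (j + 1) p.1, ps J j p.2 + ps J (j + 1) p.2)) ≤ 1.7321 * (k0 + k1) :=
      mul_le_mul h3s htri (Real.sqrt_nonneg _) (by norm_num)
    linarith
  refine (mul_le_mul hA hd (Real.sqrt_nonneg _) (by positivity)).trans ?_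
  exact real_kstep hσ0 h20 h2u hy0 hN00 hN10 hk00 hk10 hy

omit h [CompleteSpace H] hL in
theorem sc_sum (n : ℕ) : ∑ j ∈ Finset.range n, Real.sqrt (sc j) ≤ 3.5 * (1 - Real.sqrt (sc n)) := by
  induction n with
  | zero => simp [sc]
  | succ n ih =>
    rw [Finset.sum_range_succ, sq_sc]
    have h1 : 0 < Real.sqrt (sc n) := Real.sqrt_pos.2 (sc_pos n)
    have h2 : 1 / Real.sqrt 2 ≤ 0.7072 := by
      rw [div_le_iff₀ (by positivity)]
      have : 1.4141 ≤ Real.sqrt 2 := by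
        rw [Real.le_sqrt' (by norm_num)]; norm_num
      linarith
    have h3 : Real.sqrt (sc n) / Real.sqrt 2 = Real.sqrt (sc n) * (1 / Real.sqrt 2) := by ring
    rw [h3]
    have h4 : Real.sqrt (sc n) * (1 / Real.sqrt 2) ≤ Real.sqrt (sc n) * 0.7072 :=
      mul_le_mul_of_nonneg_left h2 h1.le
    linarith

/-- **the abstract layer**: `K_1(z,z) ≤ 10^12 ‖A z‖²` -/
theorem k1 {p : H × H} (hp : p ∈ Gr) (hgap : ‖p.1‖ ≤ ‖p.2‖) : KK G 0 p p ≤ 10 ^ 12 * ‖p.2‖ ^ 2 := by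
  have hr := h.res
  obtain ⟨V, hV⟩ : ∃ V, V = ‖p.2‖ := ⟨_, rfl⟩
  have hV0 : 0 ≤ V := by rw [hV]; exact norm_nonneg _
  obtain ⟨K, hKd⟩ : ∃ K : ℕ → ℝ, ∀ j, K j = KK G 0 (ps J j p.1, ps J j p.2) (ps J j p.1, ps J j p.2) :=
    ⟨_, fun j => rfl⟩
  have hK0 : ∀ j, 0 ≤ K j := fun j => by rw [hKd]; exact h.kk 0 _ (hr.ps_mem hp j)
  obtain ⟨y, hy⟩ : ∃ y : ℕ → ℝ, ∀ j, y j = ‖yy J j p.2‖ := ⟨_, fun j => rfl⟩
  obtain ⟨φ, hφ⟩ : ∃ φ : ℕ → ℝ, ∀ j, φ j = Real.sqrt (sc j) *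
    Real.sqrt (inner ℝ (G 1 (ps J j p.2)) (ps J j p.2)) := ⟨_, fun j => rfl⟩
  obtain ⟨k, hk⟩ : ∃ k : ℕ → ℝ, ∀ j, k j = Real.sqrt (K j) := ⟨_, fun j => rfl⟩
  have hk0 : ∀ j, 0 ≤ k j := fun j => by rw [hk]; exact Real.sqrt_nonneg _
  have hk2 : ∀ j, k j ^ 2 = K j := fun j => by rw [hk, Real.sq_sqrt (hK0 j)]
  have hstep : ∀ j, K (j + 1) - K j ≤ (2775 * y j ^ 2 + 1149 * φ j ^ 2 + 1626 * φ (j + 1) ^ 2)
      + 3981 * V * Real.sqrt (sc j) * (k j + k (j + 1)) := by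
    intro j
    have := h.kstep hL hp j
    rw [← hKd, ← hKd, ← hy, ← hφ, ← hφ, ← hk, ← hk, ← hV] at this
    exact this
  have hphi : ∀ n, ∑ j ∈ Finset.range (n + 1), φ j ^ 2 ≤ 76407100 * V ^ 2 := by
    intro n
    have := h.phi_sum hL p.2 n
    rw [← hV] at this
    refine le_trans (le_of_eq ?_) this
    exact Finset.sum_congr rfl fun j _ => by rw [hφ]
  have hys : ∀ n, ∑ j ∈ Finset.range n, y j ^ 2 ≤ 2 * V ^ 2 := by
    intro n
    have := hr.yy_sum n p.2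
    rw [← hV] at this
    refine le_trans (le_of_eq ?_) this
    exact Finset.sum_congr rfl fun j _ => by rw [hy]
  have hsum : ∀ n, K n ≤ K 0 + (∑ j ∈ Finset.range n, (2775 * y j ^ 2 + 1149 * φ j ^ 2 + 1626 * φ (j + 1) ^ 2))
      + 3981 * V * ∑ j ∈ Finset.range n, Real.sqrt (sc j) * (k j + k (j + 1)) := by
    intro n
    induction n with
    | zero => simp
    | succ n ih =>
      rw [Finset.sum_range_succ, Finset.sum_range_succ (fun j => Real.sqrt (sc j) * (k j + k (j + 1))) n]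
      have := hstep n
      linarith
  have hb1 : ∀ n, ∑ j ∈ Finset.range n, (2775 * y j ^ 2 + 1149 * φ j ^ 2 + 1626 * φ (j + 1) ^ 2) ≤
      212029708050 * V ^ 2 := by
    intro n
    rw [Finset.sum_add_distrib, Finset.sum_add_distrib, ← Finset.mul_sum, ← Finset.mul_sum,
      ← Finset.mul_sum]
    have h1 := hys n
    have h2 := hphi n
    have h3 : ∑ j ∈ Finset.range n, φ j ^ 2 ≤ ∑ j ∈ Finset.range (n + 1), φ j ^ 2 := by
      rw [Finset.sum_range_succ]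
      linarith [sq_nonneg (φ n)]
    have h4 : ∑ j ∈ Finset.range n, φ (j + 1) ^ 2 ≤ ∑ j ∈ Finset.range (n + 1), φ j ^ 2 := by
      rw [Finset.sum_range_succ']
      linarith [sq_nonneg (φ 0)]
    linarith
  have hbase : K 0 ≤ 4887038 * V ^ 2 := by
    have h1 := h.base hL p.1
    have h2 := h.base hL p.2
    have h3 := (h.pf 1).le (ps J 0 p.1) (ps J 0 p.2)
    have m0 := hr.ps_mem hp 0
    have e : K 0 = inner ℝ (G 1 (ps J 0 p.1)) (ps J 0 p.2)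
        + ((inner ℝ (G 1 (ps J 0 p.1)) (ps J 0 p.1) : ℝ) - inner ℝ (G 0 (ps J 0 p.1)) (ps J 0 p.1)) / 2 := by
      rw [hKd]
      unfold KK
      have e2 : (inner ℝ (G (0 + 1) (ps J 0 p.2)) (ps J 0 p.1) : ℝ) =
          inner ℝ (G (0 + 1) (ps J 0 p.1)) (ps J 0 p.2) := by
        rw [h.sa, real_inner_comm]
      simp only [e2]
      norm_num
      ring
    have h4 := h.nn 0 (ps J 0 p.1)
    have h5 := Real.sq_sqrt (h.nn 1 (ps J 0 p.1))
    rw [← hV] at h2 hgap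
    set a := Real.sqrt (inner ℝ (G 1 (ps J 0 p.1)) (ps J 0 p.1)) with ha
    set b := Real.sqrt (inner ℝ (G 1 (ps J 0 p.2)) (ps J 0 p.2)) with hb
    have ha0 : 0 ≤ a := Real.sqrt_nonneg _
    have hb0 : 0 ≤ b := Real.sqrt_nonneg _
    have h6 : a ≤ 1805 * V := by linarith
    have h7 : a * b ≤ (1805 * V) * (1805 * V) := mul_le_mul h6 h2 hb0 (by positivity)
    have h8 : a ^ 2 ≤ (1805 * V) ^ 2 := pow_le_pow_left₀ ha0 h6 2
    rw [e]
    nlinarith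
  have hmain : ∀ n, ∀ j ≤ n, k j ≤ 10 ^ 6 * V := by
    intro n
    induction n with
    | zero =>
      intro j hj
      have : j = 0 := by omega
      subst this
      have h1 := hk2 0
      by_contra hc
      rw [not_le] at hc
      nlinarith [hk0 0]
    | succ n ih =>
      intro j hj
      rcases Nat.lt_or_ge j (n + 1) with hlt | hge
      · exact ih j (by omega)
      · have hj' : j = n + 1 := by omega
        subst hj'
        by_contra hc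
        rw [not_le] at hc
        have hall : ∀ i ∈ Finset.range (n + 1), Real.sqrt (sc i) * (k i + k (i + 1)) ≤
            Real.sqrt (sc i) * (2 * k (n + 1)) := by
          intro i hi
          have hi' := Finset.mem_range.1 hi
          refine mul_le_mul_of_nonneg_left ?_ (Real.sqrt_nonneg _)
          have h1 : k i ≤ k (n + 1) := (ih i (by omega)).trans hc.le
          have h2 : k (i + 1) ≤ k (n + 1) := by
            rcases Nat.lt_or_ge (i + 1) (n + 1) with h3 | h3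
            · exact (ih (i + 1) (by omega)).trans hc.le
            · have : i + 1 = n + 1 := by omega
              rw [this]
          linarith
        have h3 := Finset.sum_le_sum hall
        rw [← Finset.sum_mul] at h3
        have h4 := sc_sum (n + 1)
        have h5 : 0 ≤ Real.sqrt (sc (n + 1)) := Real.sqrt_nonneg _
        have h6 : (∑ i ∈ Finset.range (n + 1), Real.sqrt (sc i)) * (2 * k (n + 1)) ≤ 3.5 * (2 * k (n + 1)) :=
          mul_le_mul_of_nonneg_right (by linarith) (by linarith [hk0 (n + 1)])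
        have h7 := hsum (n + 1)
        have h8 := hb1 (n + 1)
        have h9 : 3981 * V * ∑ j ∈ Finset.range (n + 1), Real.sqrt (sc j) * (k j + k (j + 1)) ≤
            3981 * V * (3.5 * (2 * k (n + 1))) := mul_le_mul_of_nonneg_left (h3.trans h6) (by positivity)
        have h10 := hk2 (n + 1)
        have h11 : 0 ≤ V * (k (n + 1) - 10 ^ 6 * V) := mul_nonneg hV0 (by linarith)
        have h12 : 0 < k (n + 1) := lt_of_le_of_lt (by positivity) hc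
        have h13 : 0 < k (n + 1) * (k (n + 1) - 10 ^ 6 * V) := mul_pos h12 (by linarith)
        nlinarith
  -- the limit
  have hKb : ∀ n, K n ≤ 10 ^ 12 * V ^ 2 := by
    intro n
    have h1 := hmain n n le_rfl
    rw [← hk2 n]
    have := pow_le_pow_left₀ (hk0 n) h1 2
    nlinarith
  have hlim : Tendsto K atTop (𝓝 (KK G 0 p p)) := by
    have h1 := hr.tend_ps p.1
    have h2 := hr.tend_ps p.2
    have hc : Continuous (fun q : H × H => KK G 0 q q) := by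
      unfold KK
      fun_prop
    have h3 := (hc.tendsto (p.1, p.2)).comp (h1.prodMk_nhds h2)
    refine h3.congr fun j => ?_
    rw [hKd]
    rfl
  have := le_of_tendsto' hlim hKb
  rw [hV] at this
  exact this

end Chain

end Vale.Agent.P245.Abs44
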